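import Vale.Agent.P127.End2.AB
import Vale.Agent.P127.End0

/-! # P127 End2/Core: End2 with abstract scales. -/

namespace Vale.Agent.P127

open Finset
open scoped Classical

theorem e2_small {D1 D2 X1 X2 x ξ : ℝ} (x1 : |X1| ≤ x) (x2 : |X2| ≤ x)
    (a1 : |D1 - X1| ≤ max |D1| |D2| / 200 + ξ) (a2 : |D2 - X2| ≤ max |D1| |D2| / 200 + ξ) :
    199 / 200 * max |D1| |D2| ≤ x + ξ := by
  have b1 := abs_add_le (D1 - X1) X1
  have b2 := abs_add_le (D2 - X2) X2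
  rw [sub_add_cancel] at b1 b2
  have : max |D1| |D2| ≤ x + max |D1| |D2| / 200 + ξ := max_le (by linarith) (by linarith)
  linarith

theorem e2_fin {D1 D2 k1 k2 Y1 Y2 τ s γ e : ℝ} (hs : 0 < s) (hk : s ≤ max |k1| |k2|)
    (hτ : 1000 * s ≤ |τ|) (hγ : 64 * s ≤ γ) (he : 0 ≤ e)
    (a1 : |D1 - τ * k1| ≤ max |D1| |D2| / 200 + s ^ 2)
    (a2 : |D2 - τ * k2| ≤ max |D1| |D2| / 200 + s ^ 2)
    (b1 : |D1 - Y1| ≤ max |D1| |D2| / 200 + s ^ 2) (b2 : |D2 - Y2| ≤ max |D1| |D2| / 200 + s ^ 2)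
    (h1 : |τ * k1| ≤ 2 * max |D1| |D2| → |τ * k2| ≤ 2 * max |D1| |D2| →
      |Y1| ≤ 2 * max |D1| |D2| → |Y2| ≤ 2 * max |D1| |D2| →
      32 * (|τ| * s ^ 2) ≤ max |τ * k1| |τ * k2| * γ →
      |(τ * k1 * D2 - τ * k2 * D1) + (τ * k1 * Y2 - τ * k2 * Y1)| ≤
        1 / 100 * |τ * k1 * D2 - τ * k2 * D1| + e * max |D1| |D2|)
    (h2 : |τ * k1| ≤ 2 * max |D1| |D2| → |τ * k2| ≤ 2 * max |D1| |D2| →
      |Y1| ≤ 2 * max |D1| |D2| → |Y2| ≤ 2 * max |D1| |D2| →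
      32 * (|τ| * s ^ 2) ≤ max |Y1| |Y2| * γ →
      |(Y1 * D2 - Y2 * D1) - (τ * k1 * Y2 - τ * k2 * Y1)| ≤
        1 / 100 * |Y1 * D2 - Y2 * D1| + e * max |D1| |D2|) :
    |k1 * D2 - k2 * D1| ≤ 5 * e * max |k1| |k2| := by
  have hτ0 : 0 < |τ| := by linarith
  have ex : max |τ * k1| |τ * k2| = |τ| * max |k1| |k2| := by
    rw [abs_mul, abs_mul, mul_max_of_nonneg _ _ hτ0.le]
  have c1 := e2_small (le_max_left _ _) (le_max_right _ _) a1 a2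
  have c2 := e2_small (le_max_left _ _) (le_max_right _ _) b1 b2
  have d1 := le_max_left |D1| |D2|
  have d2 := le_max_right |D1| |D2|
  have c3 : max |τ * k1| |τ * k2| ≤ 201 / 200 * max |D1| |D2| + s ^ 2 := by
    have u1 := abs_sub D1 (D1 - τ * k1)
    have u2 := abs_sub D2 (D2 - τ * k2)
    rw [sub_sub_cancel] at u1 u2
    exact max_le (by linarith) (by linarith)
  have c4 : |τ| * s ≤ max |τ * k1| |τ * k2| := ex ▸ mul_le_mul_of_nonneg_left hk hτ0.le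
  have c5 : 1000 * s ^ 2 ≤ |τ| * s := by nlinarith
  have u1 := abs_sub D1 (D1 - Y1)
  have u2 := abs_sub D2 (D2 - Y2)
  rw [sub_sub_cancel] at u1 u2
  have x1 := le_max_left |τ * k1| |τ * k2|
  have x2 := le_max_right |τ * k1| |τ * k2|
  have c6 : 0 ≤ |τ| * s := by positivity
  have c7 : |τ| * s / 2 ≤ max |Y1| |Y2| := by linarith
  have g1 : 32 * (|τ| * s ^ 2) ≤ |τ| * s / 2 * γ := by nlinarith
  have hγ0 : 0 ≤ γ := by linarith
  have hsq := sq_nonneg s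
  have := alg (θ := 1 / 100) (by norm_num) le_rfl he rfl (by linarith) (by linarith) (by linarith)
    (by linarith) (h1 (by linarith) (by linarith) (by linarith) (by linarith)
      (g1.trans (mul_le_mul_of_nonneg_right (by linarith) hγ0)))
    (h2 (by linarith) (by linarith) (by linarith) (by linarith)
      (g1.trans (mul_le_mul_of_nonneg_right c7 hγ0)))
  rw [mul_assoc, mul_assoc τ, ← mul_sub, abs_mul] at this
  refine le_of_mul_le_mul_left (this.trans ?_) hτ0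
  have c8 : 4 * max |D1| |D2| ≤ 5 * (|τ| * max |k1| |k2|) := by linarith
  have := mul_le_mul_of_nonneg_left c8 he
  linarith

theorem E2.vec {σ N H K η ξ : ℝ} {d : Dat 3} {i0 j1 j2 : Fin 3} (h : E2 σ d N H K η ξ i0 j1 j2)
    (z0 : ℝ) {v1 v2 : ℝ} (h1 : |v1| ≤ 1) (h2 : |v2| ≤ 1) (h3 : v1 = 1 ∨ v2 = 1) :
    ∃ (v : V 3) (j0 : Fin 3), j0 ∉ d.S ∧ v j0 = 1 ∧ ‖v‖ ≤ 8 ∧ ∀ z, ‖mv (d.P z) v‖ ≤
      |(d.P z i0 j1 - d.P z0 i0 j1) * v1 + (d.P z i0 j2 - d.P z0 i0 j2) * v2| := by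
  obtain ⟨v, e0, e1, e2⟩ : ∃ v : V 3, v i0 = -(d.P z0 i0 j1 * v1 + d.P z0 i0 j2 * v2) ∧
      v j1 = v1 ∧ v j2 = v2 := ⟨fun j => if j = j1 then v1 else if j = j2 then v2 else
    -(d.P z0 i0 j1 * v1 + d.P z0 i0 j2 * v2), by simp [h.ix.n1.symm, h.ix.n2.symm], by simp,
    by simp [h.ix.n12.symm]⟩
  have hn : ‖v‖ ≤ 8 := by
    refine (pi_norm_le_iff_of_nonneg (by norm_num)).2 fun j => ?_
    have := e2_dot (h.Pb z0 j1) (h.Pb z0 j2) h1 h2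
    rw [Real.norm_eq_abs]
    rcases h.ix.all j with rfl | rfl | rfl
    · rw [e0, abs_neg]
      linarith
    · rw [e1]
      linarith
    · rw [e2]
      linarith
  have hz : ∀ z, ‖mv (d.P z) v‖ ≤
      |(d.P z i0 j1 - d.P z0 i0 j1) * v1 + (d.P z i0 j2 - d.P z0 i0 j2) * v2| := fun z => by
    refine (h.normP z v).trans_eq ?_
    rw [e0, e1, e2]
    congr 1
    ring
  rcases h3 with e | e
  · exact ⟨v, j1, by simpa [h.S] using h.ix.n1, e1.trans e, hn, hz⟩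
  · exact ⟨v, j2, by simpa [h.S] using h.ix.n2, e2.trans e, hn, hz⟩

theorem e2_gam {σ : ℝ} (h0 : 0 < σ) (C : ℝ) (c : ℕ) : ∃ g : ℕ, ∀ K : ℝ, 2 ≤ K →
    C * K ^ 2 * K ^ c * (1 / K ^ g) ^ σ < 1 := by
  obtain ⟨m, hm⟩ := pow_unbounded_of_one_lt C (one_lt_two (α := ℝ))
  obtain ⟨g, hg⟩ := exists_nat_ge (((m + 2 + c : ℕ) : ℝ) / σ)
  refine ⟨g, fun K hK => ?_⟩
  have h1 : K ^ (m + 2 + c) ≤ (K ^ g) ^ σ := by
    rw [← Real.rpow_natCast, ← Real.rpow_natCast K g, ← Real.rpow_mul (by linarith)]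
    exact Real.rpow_le_rpow_of_exponent_le (by linarith) ((div_le_iff₀ h0).1 hg)
  have h2 : C < K ^ m := hm.trans_le (pow_le_pow_left₀ two_pos.le hK m)
  rw [Real.div_rpow zero_le_one (by positivity), Real.one_rpow, mul_one_div,
    div_lt_one (by positivity)]
  refine lt_of_lt_of_le ?_ h1
  rw [pow_add, pow_add]
  gcongr

theorem e2_pw {K t : ℝ} (hK : 2 ≤ K) (ht : 0 < t) {M : ℕ} (hM : K ^ M * t ≤ 1) (j k : ℕ)
    (h : j + k ≤ M) : 2 ^ j * K ^ k * t ≤ 1 := by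
  refine le_trans (mul_le_mul_of_nonneg_right ?_ ht.le) hM
  calc 2 ^ j * K ^ k ≤ K ^ j * K ^ k := by gcongr
    _ = K ^ (j + k) := (pow_add _ _ _).symm
    _ ≤ K ^ M := pow_le_pow_right₀ (by linarith) h

theorem e2_sc {K G t : ℝ} (hK : 2 ≤ K) (hG : 0 < G) (ht : 0 < t) (t4 : 4 * t ≤ 1)
    (g0 : 2 ^ 14 * (G * K) * t ≤ 1) : 4 * K * (t ^ 2) ^ 2 ≤ 1 / G ∧ 64 * t ^ 2 ≤ 1 / G ∧
      5 * (2048 * K * (t ^ 2) ^ 2 / (1 / G)) ≤ t := by
  have tt : t ^ 2 ≤ t / 4 := by nlinarith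
  have tx : (t ^ 2) ^ 2 ≤ t ^ 2 := by nlinarith [sq_nonneg t]
  have g6 : G * t ≤ G * K * t := by nlinarith [mul_pos hG ht]
  have g7 : G * K * (t ^ 2) ^ 2 ≤ G * K * t ^ 2 := by gcongr
  have g8 : G * K * t ^ 2 ≤ G * K * (t / 4) := by gcongr
  have g9 : G * t ^ 2 ≤ G * (t / 4) := by gcongr
  have := mul_pos hG ht
  refine ⟨(le_div_iff₀ hG).2 (by linarith), (le_div_iff₀ hG).2 (by linarith), ?_⟩
  rw [div_div_eq_mul_div, div_one]
  have := mul_le_mul_of_nonneg_right g0 ht.le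
  have : 0 ≤ G * K * t ^ 2 := by positivity
  linarith

theorem e2_core {σ : ℝ} (h0 : 0 < σ) : ∃ M ≥ 3, ∀ (d : Dat 3) (N H K η t : ℝ)
    (i0 j1 j2 : Fin 3), E2 σ d N H K η ((t ^ 2) ^ 2) i0 j1 j2 → 0 < t → K ^ M * t ≤ 1 →
    1 / N ≤ t * (t ^ 2) ^ 2 → 1 ≤ H * t → ∃ E' ⊆ d.c.E, d.c.nL * H / K ^ M ≤ E'.card ∧
      ∃ (v : V 3) (j0 : Fin 3), j0 ∉ d.S ∧ v j0 = 1 ∧ ‖v‖ ≤ 8 ∧ ∀ ω ∈ E', ‖mv (d.P ω.2) v‖ ≤ t := by
  obtain ⟨c0, hc0⟩ := end0 3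
  obtain ⟨cA, hA⟩ := e2_A h0
  obtain ⟨C, -, hB⟩ := e2_B
  obtain ⟨g, hg⟩ := e2_gam h0 C (c0 + 4)
  refine ⟨c0 + ((c0 + 4) * cA + 12) + g + 20, by omega,
    fun d N H K η t i0 j1 j2 h ht hM hN hH => ?_⟩
  have hK := h.K2
  have hN1 := h.N1
  have pw := e2_pw hK ht hM
  have hK1 : ∀ k : ℕ, 1 ≤ K ^ k := fun k => one_le_pow₀ (by linarith)
  have t4 : 4 * t ≤ 1 := by simpa using (pw 2 0 (by omega)).trans_eq' (by norm_num)
  obtain ⟨r, hr⟩ : ∃ r, r = (c0 + 4) * cA + 12 := ⟨_, rfl⟩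
  rw [← hr] at hM pw ⊢
  have hH0 : 0 < H := by nlinarith
  obtain ⟨z0, E', hE', hm, hz⟩ := hc0 d.c N H K (1 / K ^ r) h.reg.good.toPre hN1 hK (by positivity)
    ((div_le_one (by positivity)).2 (hK1 r)) (by
      rw [mul_one_div, le_div_iff₀ (by positivity), ← pow_add]
      have := pw 0 (c0 + r) (by omega)
      nlinarith [hK1 (c0 + r)])
  refine ⟨E', hE', le_trans ?_ hm, ?_⟩
  · rw [mul_one_div, div_div, ← pow_add]
    have := h.reg.good.nL_pos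
    exact div_le_div_of_nonneg_left (by positivity) (by positivity)
      (pow_le_pow_right₀ (by linarith) (by omega))
  have k1 : K ≤ K ^ (c0 + 4) := le_self_pow₀ (by linarith) (by omega)
  have k9 : 9 ≤ K ^ (c0 + 4) := by
    have : (2 : ℝ) ^ 4 ≤ K ^ (c0 + 4) := (pow_le_pow_left₀ two_pos.le hK 4).trans
      (pow_le_pow_right₀ (by linarith) (by omega))
    linarith
  have hG := pw 3 ((c0 + 4) * cA) (by omega)
  rw [pow_mul] at hG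
  have hG1 : 1 ≤ (K ^ (c0 + 4)) ^ cA := one_le_pow₀ (hK1 _)
  have hρ : (K ^ (c0 + 4)) ^ cA * (1 / K ^ r * K) ≤ 1 / 2000 := by
    have : (2 : ℝ) ^ 11 ≤ K ^ 11 := pow_le_pow_left₀ two_pos.le hK 11
    rw [hr, pow_add K ((c0 + 4) * cA) 12, pow_mul, show (K ^ (c0 + 4)) ^ cA *
      (1 / ((K ^ (c0 + 4)) ^ cA * K ^ 12) * K) = 1 / K ^ 11 by field_simp]
    exact one_div_le_one_div_of_le (by norm_num) (by linarith)
  have hρ' : 1 / K ^ r * K ≤ 1 / 100 :=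
    ((le_mul_of_one_le_left (by positivity) hG1).trans hρ).trans (by norm_num)
  have hρ1 : 1 / K ^ r ≤ 1 := (div_le_one (by positivity)).2 (hK1 r)
  have tt : t ^ 2 ≤ t / 4 := by nlinarith
  have tx : (t ^ 2) ^ 2 ≤ t ^ 2 := by nlinarith [sq_nonneg t]
  have n2 : 8 * (K ^ (c0 + 4)) ^ cA * (1 / N) ≤ (t ^ 2) ^ 2 := by
    have := mul_le_mul_of_nonneg_left hN (show 0 ≤ 8 * (K ^ (c0 + 4)) ^ cA by positivity)
    nlinarith [sq_nonneg (t ^ 2)]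
  have n1 : (K ^ (c0 + 4)) ^ cA ≤ N := by
    rw [mul_one_div, div_le_iff₀ (by linarith)] at n2
    nlinarith
  obtain ⟨F, hF0, hF⟩ : ∃ F : ℝ → Finset ℕ, (∀ z, ∀ i ∈ F z, (i, z0) ∈ d.c.E ∧ (i, z) ∈ d.c.E) ∧
      ∀ ω ∈ E', d.c.nL / K ^ (c0 + 4) ≤ (F ω.2).card :=
    ⟨fun z => d.c.L.filter fun i => (i, z0) ∈ d.c.E ∧ (i, z) ∈ d.c.E,
      fun z i hi => (mem_filter.1 hi).2, fun ω hω =>
      (div_le_div_of_nonneg_left h.reg.good.nL_pos.le (by positivity)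
        (pow_le_pow_right₀ (by linarith) (by omega))).trans (hz ω hω).2.2⟩
  have A0 : ∀ ω ∈ E', ∀ j, |d.P ω.2 i0 j - d.P z0 i0 j - (ω.2 - z0) * d.κ (cz η z0) i0 j| ≤
      max |d.P ω.2 i0 j1 - d.P z0 i0 j1| |d.P ω.2 i0 j2 - d.P z0 i0 j2| / 200 + (t ^ 2) ^ 2 :=
    fun ω hω => hA d N H K _ η _ z0 ω.2 _ _ _ i0 j1 j2 h k1 k9 (hF0 ω.2) (hF ω hω) n1 n2 hρ
      (hz ω hω).2.1 (le_max_left _ _) (le_max_right _ _)
  by_cases hk : max |d.κ (cz η z0) i0 j1| |d.κ (cz η z0) i0 j2| ≤ t ^ 2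
  · obtain ⟨v, j0, a, b, c, e⟩ := h.vec z0 abs_one.le (abs_zero.le.trans zero_le_one) (Or.inl rfl)
    refine ⟨v, j0, a, b, c, fun ω hω => (e _).trans ?_⟩
    have := e2_small (e2_mul ((hz ω hω).2.1.trans hρ1) ((le_max_left _ _).trans hk))
      (e2_mul ((hz ω hω).2.1.trans hρ1) ((le_max_right _ _).trans hk)) (A0 ω hω j1) (A0 ω hω j2)
    rw [mul_one, mul_zero, add_zero]
    refine (le_max_left _ |d.P ω.2 i0 j2 - d.P z0 i0 j2|).trans ?_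
    linarith
  rw [not_le] at hk
  obtain ⟨v1, v2, a1, a2, a3, a4⟩ := e2_dir _ _ (lt_trans (by positivity) hk)
  obtain ⟨v, j0, a, b, c, e⟩ := h.vec z0 a1 a2 a3
  have g0 := pw 14 (g + 1) (by omega)
  have g5 : 0 < K ^ g := by positivity
  rw [pow_succ K g] at g0
  obtain ⟨g3, g4, g6⟩ := e2_sc hK g5 ht t4 g0
  have g7 : 1000 * t ^ 2 ≤ 1 / K ^ r / K ^ c0 := by
    rw [div_div, ← pow_add, le_div_iff₀ (by positivity)]
    have u1 := pw 10 (r + c0) (by omega)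
    have u2 := mul_le_mul_of_nonneg_left tt (show 0 ≤ K ^ (r + c0) by positivity)
    have u3 := mul_pos (show 0 < K ^ (r + c0) by positivity) ht
    linarith
  clear pw hc0 hM hN hH hm hG hG1 tt tx g0 t4
  refine ⟨v, j0, a, b, c, fun ω hω => (e _).trans ((a4 _ _ (5 * (2048 * K * (t ^ 2) ^ 2 /
    (1 / K ^ g))) ?_).trans g6)⟩
  · have A1 : ∀ j, |d.P ω.2 i0 j - d.P z0 i0 j - (ω.2 - z0) * d.κ (cz η ω.2) i0 j| ≤
        max |d.P ω.2 i0 j1 - d.P z0 i0 j1| |d.P ω.2 i0 j2 - d.P z0 i0 j2| / 200 + (t ^ 2) ^ 2 :=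
      fun j => by
        have := hA d N H K _ η _ ω.2 z0 _ _ _ i0 j1 j2 h k1 k9
          (fun i hi => (hF0 ω.2 i hi).symm) (hF ω hω) n1 n2 hρ
          ((abs_sub_comm _ _).trans_le (hz ω hω).2.1)
          ((abs_sub_comm _ _).trans_le (le_max_left _ |d.P ω.2 i0 j2 - d.P z0 i0 j2|))
          ((abs_sub_comm _ _).trans_le (le_max_right _ _)) j
        rw [← abs_neg] at this
        convert this using 2
        ring
    refine e2_fin (by positivity) hk.le (g7.trans (hz ω hω).1) g4 (by positivity) (A0 ω hω j1)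
      (A0 ω hω j2) (A1 j1) (A1 j2) (fun x1 x2 y1 y2 w => ?_) fun x1 x2 y1 y2 w => ?_
    · exact hB σ d N H K _ η _ z0 ω.2 _ _ _ _ i0 j1 j2 h (by positivity)
        (hF0 ω.2) (hF ω hω) ((div_le_one g5).2 (hK1 g)) (hg K hK) g3 hρ'
        (hz ω hω).2.1 _ _ _ _ _ _ rfl rfl rfl rfl rfl rfl (le_max_left _ _) (le_max_right _ _)
        x1 x2 y1 y2 w
    · have := hB σ d N H K _ η _ ω.2 z0 _ _ _ _ i0 j1 j2 h (by positivity)
        (fun i hi => (hF0 ω.2 i hi).symm) (hF ω hω) ((div_le_one g5).2 (hK1 g)) (hg K hK) g3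
        hρ' ((abs_sub_comm _ _).trans_le (hz ω hω).2.1)
        (-((ω.2 - z0) * d.κ (cz η ω.2) i0 j1)) (-((ω.2 - z0) * d.κ (cz η ω.2) i0 j2))
        (-((ω.2 - z0) * d.κ (cz η z0) i0 j1)) (-((ω.2 - z0) * d.κ (cz η z0) i0 j2))
        (-(d.P ω.2 i0 j1 - d.P z0 i0 j1)) (-(d.P ω.2 i0 j2 - d.P z0 i0 j2))
        (by ring) (by ring) (by ring) (by ring) (by ring) (by ring)
        ((abs_neg _).trans_le (le_max_left _ |d.P ω.2 i0 j2 - d.P z0 i0 j2|))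
        ((abs_neg _).trans_le (le_max_right _ _)) ((abs_neg _).trans_le y1)
        ((abs_neg _).trans_le y2) ((abs_neg _).trans_le x1) ((abs_neg _).trans_le x2)
        (by rwa [abs_neg, abs_neg, abs_sub_comm])
      simp only [neg_mul_neg] at this
      convert this using 2
      ring

end Vale.Agent.P127
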