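import Vale.Agent.P127.End2.Pl
import Vale.Agent.P127.LemA

/-! # P127 End2/AB: the two geometric inputs of End2 in scalar form. -/

namespace Vale.Agent.P127

open Finset
open scoped Classical

/-- the three indices -/
structure Ix (i0 j1 j2 : Fin 3) : Prop where
  sum : ∀ f : Fin 3 → ℝ, ∑ j, f j = f i0 + f j1 + f j2
  all : ∀ j, j = i0 ∨ j = j1 ∨ j = j2
  n1 : j1 ≠ i0
  n2 : j2 ≠ i0
  n12 : j1 ≠ j2

theorem e2_ix (i0 : Fin 3) : ∃ j1 j2, Ix i0 j1 j2 := by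
  refine ⟨i0.succAbove 0, i0.succAbove 1, fun f => ?_, ?_, Fin.succAbove_ne _ _,
    Fin.succAbove_ne _ _, fun h => absurd (Fin.succAbove_right_injective h) (by decide)⟩
  · rw [Fin.sum_univ_succAbove f i0, Fin.sum_univ_two, add_assoc]
  · revert i0
    decide

/-- the hypotheses of End2 with abstract scales -/
structure E2 (σ : ℝ) (d : Dat 3) (N H K η ξ : ℝ) (i0 j1 j2 : Fin 3) : Prop where
  ix : Ix i0 j1 j2
  S : d.S = {i0}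
  reg : Reg σ 1 d N H K
  l1 : Lip1 d K ξ
  k0 : ∀ n i j, (i ∉ d.S ∨ j ∈ d.S) → d.κ n i j = 0
  k1 : ∀ n, ‖d.κ n‖ ≤ K
  hb : HBp d η ξ
  l2 : Lip2 d K η ξ
  K2 : 2 ≤ K
  N1 : 1 ≤ N
  Nξ : 1 / N ≤ ξ
  Nη : 1 / N ≤ η

namespace E2

variable {σ N H K η ξ : ℝ} {d : Dat 3} {i0 j1 j2 : Fin 3}

theorem P00 (h : E2 σ d N H K η ξ i0 j1 j2) (z : ℝ) : d.P z i0 i0 = 1 := by
  have := (h.reg.gr z).2.1 i0 (by simp [h.S]) i0 (by simp [h.S])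
  rwa [if_pos rfl] at this

theorem Pb (h : E2 σ d N H K η ξ i0 j1 j2) (z : ℝ) (j : Fin 3) : |d.P z i0 j| ≤ 4 := by
  have := (h.reg.gr z).2.2 i0 j
  rw [h.reg.card_S] at this
  exact this.trans (by norm_num)

theorem kb (h : E2 σ d N H K η ξ i0 j1 j2) (n : ℤ) (j : Fin 3) : |d.κ n i0 j| ≤ K :=
  ((norm_le_pi_norm (d.κ n i0) j).trans (norm_le_pi_norm (d.κ n) i0)).trans (h.k1 n)

theorem mvP (h : E2 σ d N H K η ξ i0 j1 j2) (z : ℝ) (w : V 3) :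
    mv (d.P z) w i0 = w i0 + d.P z i0 j1 * w j1 + d.P z i0 j2 * w j2 := by
  rw [mv, h.ix.sum, h.P00, one_mul]

theorem mvk (h : E2 σ d N H K η ξ i0 j1 j2) (n : ℤ) (w : V 3) :
    mv (d.κ n) w i0 = d.κ n i0 j1 * w j1 + d.κ n i0 j2 * w j2 := by
  rw [mv, h.ix.sum, h.k0 n i0 i0 (Or.inr (by simp [h.S])), zero_mul, zero_add]

theorem normP (h : E2 σ d N H K η ξ i0 j1 j2) (z : ℝ) (w : V 3) :
    ‖mv (d.P z) w‖ ≤ |w i0 + d.P z i0 j1 * w j1 + d.P z i0 j2 * w j2| := by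
  refine (pi_norm_le_iff_of_nonneg (abs_nonneg _)).2 fun i => ?_
  by_cases hi : i = i0
  · rw [hi, h.mvP]
    exact le_rfl
  · have : mv (d.P z) w i = 0 := by
      simp [mv, (h.reg.gr z).1 i (by simpa [h.S] using hi)]
    rw [this, norm_zero]
    exact abs_nonneg _

theorem lip1 (h : E2 σ d N H K η ξ i0 j1 j2) {i i' : ℕ} {z : ℝ} (hi : (i, z) ∈ d.c.E)
    (hi' : (i', z) ∈ d.c.E) {e : V 3} (he : e = d.c.e i - d.c.e i') :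
    |e i0 + d.P z i0 j1 * e j1 + d.P z i0 j2 * e j2| ≤
      K * (‖d.c.pos (i, z) - d.c.pos (i', z)‖ + ξ) := by
  have := (norm_le_pi_norm _ i0).trans (h.l1 _ hi _ hi' rfl)
  rwa [Dat.s, Dat.s, ← mv_sub, h.mvP, ← he] at this

theorem hbp (h : E2 σ d N H K η ξ i0 j1 j2) {i i' : ℕ} {z : ℝ} (hi : (i, z) ∈ d.c.E)
    (hi' : (i', z) ∈ d.c.E) {e : V 3} (he : e = d.c.e i - d.c.e i')
    (hq : ‖d.c.pos (i, z) - d.c.pos (i', z)‖ ≤ η) :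
    |d.κ (cz η z) i0 j1 * e j1 + d.κ (cz η z) i0 j2 * e j2| ≤ ξ := by
  have := (norm_le_pi_norm _ i0).trans (h.hb _ hi _ hi' rfl hq)
  rwa [h.mvk, ← he] at this

theorem lip2 (h : E2 σ d N H K η ξ i0 j1 j2) {i i' : ℕ} {z : ℝ} (hi : (i, z) ∈ d.c.E)
    (hi' : (i', z) ∈ d.c.E) {e q : V 3} (he : e = d.c.e i - d.c.e i')
    (hq : q = d.c.pos (i, z) - d.c.pos (i', z)) :
    |e i0 + d.P z i0 j1 * e j1 + d.P z i0 j2 * e j2 +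
      (d.κ (cz η z) i0 j1 * q j1 + d.κ (cz η z) i0 j2 * q j2)| ≤
      K * (|q i0 + d.P z i0 j1 * q j1 + d.P z i0 j2 * q j2| + ξ) := by
  have h1 := (norm_le_pi_norm _ i0).trans (h.l2 _ hi _ hi' rfl)
  simp only [Dat.st, Dat.s, Dat.u] at h1
  rw [add_sub_add_comm, ← mv_sub, ← mv_sub, ← mv_sub, Pi.add_apply, h.mvP, h.mvk, ← he, ← hq] at h1
  exact h1.trans (mul_le_mul_of_nonneg_left (add_le_add (h.normP z q) le_rfl)
    (by linarith [h.K2]))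

theorem ne (h : E2 σ d N H K η ξ i0 j1 j2) {i i' : ℕ} {z : ℝ} (hi : (i, z) ∈ d.c.E)
    (hi' : (i', z) ∈ d.c.E) (j : Fin 3) :
    |(d.c.e i - d.c.e i') j| ≤ 2 ∧ |(d.c.pos (i, z) - d.c.pos (i', z)) j| ≤ 4 := by
  have p := h.reg.good.toPre
  have a := p.be i (mem_product.1 (p.sub hi)).1
  have b := p.be i' (mem_product.1 (p.sub hi')).1
  have c := (norm_le_pi_norm _ j).trans (norm_sub_le (d.c.e i) (d.c.e i'))
  have e := (norm_le_pi_norm _ j).trans (norm_sub_le (d.c.pos (i, z)) (d.c.pos (i', z)))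
  rw [Real.norm_eq_abs] at c e
  exact ⟨by linarith, by linarith [p.norm_pos hi, p.norm_pos hi']⟩

end E2

theorem e2_shift (c : Cfg 3) (i i' : ℕ) (z0 z1 : ℝ) (j : Fin 3) :
    (c.pos (i, z1) - c.pos (i', z1)) j =
      (c.pos (i, z0) - c.pos (i', z0)) j + (z1 - z0) * (c.e i - c.e i') j := by
  rw [pos_shift c i z0 z1, pos_shift c i' z0 z1]
  simp only [Pi.sub_apply, Pi.add_apply, Pi.smul_apply, smul_eq_mul]
  ring

theorem e2_A {σ : ℝ} (h0 : 0 < σ) : ∃ c : ℕ, ∀ (d : Dat 3) (N H K K' η ξ z0 z1 ρ n : ℝ)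
    (F : Finset ℕ) (i0 j1 j2 : Fin 3), E2 σ d N H K η ξ i0 j1 j2 → K ≤ K' → 9 ≤ K' →
    (∀ i ∈ F, (i, z0) ∈ d.c.E ∧ (i, z1) ∈ d.c.E) → d.c.nL / K' ≤ F.card →
    K' ^ c ≤ N → 8 * K' ^ c * (1 / N) ≤ ξ → K' ^ c * (ρ * K) ≤ 1 / 2000 → |z1 - z0| ≤ ρ →
    |d.P z1 i0 j1 - d.P z0 i0 j1| ≤ n → |d.P z1 i0 j2 - d.P z0 i0 j2| ≤ n → ∀ j,
    |d.P z1 i0 j - d.P z0 i0 j - (z1 - z0) * d.κ (cz η z0) i0 j| ≤ n / 200 + ξ := by
  obtain ⟨c, hc⟩ := lemA 3 h0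
  refine ⟨c, fun d N H K K' η ξ z0 z1 ρ n F i0 j1 j2 h hK h9 hF hm hN hN' hρ hτ n1 n2 => ?_⟩
  have hK2 := h.K2
  have hG : 1 ≤ K' ^ c := one_le_pow₀ (by linarith)
  have hρ0 : 0 ≤ ρ := (abs_nonneg _).trans hτ
  have hρ1 : ρ * K ≤ 1 / 2000 := (le_mul_of_one_le_left (by positivity) hG).trans hρ
  have hn : 0 ≤ n := (abs_nonneg _).trans n1
  have hρ2 : ρ * K ≤ 1 / 2 := by linarith
  have hw : 0 < 1 / N := by have := h.N1; positivity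
  have hξ : 0 ≤ ξ := hw.le.trans h.Nξ
  obtain ⟨Ev, hEv⟩ : ∃ Ev : V 3, ∀ j,
      Ev j = d.P z1 i0 j - d.P z0 i0 j - (z1 - z0) * d.κ (cz η z0) i0 j := ⟨_, fun _ => rfl⟩
  have hm0 := norm_nonneg Ev
  have hj : ∀ j, |d.P z1 i0 j - d.P z0 i0 j - (z1 - z0) * d.κ (cz η z0) i0 j| ≤ ‖Ev‖ := fun j =>
    hEv j ▸ norm_le_pi_norm Ev j
  have hE0 : Ev i0 = 0 := by
    rw [hEv, h.P00, h.P00, h.k0 _ i0 i0 (Or.inr (by simp [h.S]))]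
    ring
  have h1 := hc d N H K K' z0 z1 (2 * (1 / N) + 20 * (ρ * K) * ‖Ev‖ + 2 * (ρ * K) * ξ + 8 * ρ * n)
    F i0 Ev h.reg h.S hK2 hK hN hF hm hE0 (by
      refine (pi_norm_le_iff_of_nonneg (by linarith)).2 fun j => ?_
      rw [hEv]
      have a := abs_sub (d.P z1 i0 j - d.P z0 i0 j) ((z1 - z0) * d.κ (cz η z0) i0 j)
      have b := abs_sub (d.P z1 i0 j) (d.P z0 i0 j)
      have := e2_mul hτ (h.kb (cz η z0) j)
      rw [Real.norm_eq_abs]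
      linarith [h.Pb z1 j, h.Pb z0 j])
    (by
      have : 0 ≤ 20 * (ρ * K) * ‖Ev‖ + 2 * (ρ * K) * ξ + 8 * ρ * n := by positivity
      linarith)
    (fun i hi i' hi' hu => by
      obtain ⟨a0, a1⟩ := hF i hi
      obtain ⟨b0, b1⟩ := hF i' hi'
      have u1 := (norm_le_pi_norm _ i0).trans hu
      simp only [Dat.u] at u1 ⊢
      rw [← mv_sub, h.mvP] at u1
      rw [← Pi.sub_apply, ← mv_sub, h.mvP, h.ix.sum, hE0, zero_mul, zero_add, hEv, hEv,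
        ← Pi.sub_apply (d.c.pos (i, z1)) _ j1, ← Pi.sub_apply (d.c.pos (i, z1)) _ j2]
      have p1 := (h.ne a1 b1 j1).2
      have p2 := (h.ne a1 b1 j2).2
      simp only [e2_shift d.c i i' z0 z1] at u1 p1 p2 ⊢
      exact e2_algA hK2 hρ2 hτ u1 (h.lip2 a0 b0 rfl rfl) p1 p2 (h.ne a0 b0 j1).1
        (h.ne a0 b0 j2).1 (hj j1) (hj j2) n1 n2)
  intro j
  refine (hj j).trans ?_
  have b1 := mul_le_mul_of_nonneg_right hρ hm0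
  have b2 := mul_le_mul_of_nonneg_right hρ hξ
  have b3 : K' ^ c * ρ ≤ 1 / 4000 := by
    have := mul_le_mul_of_nonneg_left hK2 (show 0 ≤ K' ^ c * ρ by positivity)
    linarith
  have b4 := mul_le_mul_of_nonneg_right b3 hn
  generalize K' ^ c = G at *
  nlinarith

theorem e2_B : ∃ C ≥ (1 : ℝ), ∀ (σ : ℝ) (d : Dat 3) (N H K K' η ξ z0 z1 ρ n γ : ℝ)
    (F : Finset ℕ) (i0 j1 j2 : Fin 3), E2 σ d N H K η ξ i0 j1 j2 → 0 < K' →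
    (∀ i ∈ F, (i, z0) ∈ d.c.E ∧ (i, z1) ∈ d.c.E) → d.c.nL / K' ≤ F.card →
    γ ≤ 1 → C * K ^ 2 * K' * γ ^ σ < 1 → 4 * K * ξ ≤ γ → ρ * K ≤ 1 / 100 → |z1 - z0| ≤ ρ →
    ∀ X1 X2 Y1 Y2 D1 D2 : ℝ, X1 = (z1 - z0) * d.κ (cz η z0) i0 j1 →
    X2 = (z1 - z0) * d.κ (cz η z0) i0 j2 → Y1 = (z1 - z0) * d.κ (cz η z1) i0 j1 →
    Y2 = (z1 - z0) * d.κ (cz η z1) i0 j2 → D1 = d.P z1 i0 j1 - d.P z0 i0 j1 →
    D2 = d.P z1 i0 j2 - d.P z0 i0 j2 → |D1| ≤ n → |D2| ≤ n → |X1| ≤ 2 * n → |X2| ≤ 2 * n →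
    |Y1| ≤ 2 * n → |Y2| ≤ 2 * n → 32 * (|z1 - z0| * ξ) ≤ max |X1| |X2| * γ →
    |(X1 * D2 - X2 * D1) + (X1 * Y2 - X2 * Y1)| ≤
      1 / 100 * |X1 * D2 - X2 * D1| + 2048 * K * ξ / γ * n := by
  obtain ⟨C, hC, hs⟩ := spread 3
  refine ⟨C, hC, fun σ d N H K K' η ξ z0 z1 ρ n γ F i0 j1 j2 h hK' hF hm g1 g2 g3 hρ hτ
    X1 X2 Y1 Y2 D1 D2 eX1 eX2 eY1 eY2 eD1 eD2 d1 d2 x1 x2 y1 y2 hμ => ?_⟩
  have hK2 := h.K2
  have hw : 0 < 1 / N := by have := h.N1; positivity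
  have hξ : 0 < ξ := hw.trans_le h.Nξ
  have hKξ : 2 * ξ ≤ K * ξ := mul_le_mul_of_nonneg_right hK2 hξ.le
  have hγ : 0 < γ := by linarith
  have hn : 0 ≤ n := (abs_nonneg _).trans d1
  obtain ⟨i, hi, i', hi', hq, he⟩ := hs h.reg h.N1 F z0 K' γ hK' (fun i hi => (hF i hi).1) hm
    (h.Nξ.trans (by linarith)) g1 g2
  obtain ⟨a0, a1⟩ := hF i hi
  obtain ⟨b0, b1⟩ := hF i' hi'
  have s0 := (h.lip1 a0 b0 rfl).trans (mul_le_mul_of_nonneg_left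
    (add_le_add (hq.trans h.Nξ) le_rfl) (by linarith))
  have s1 := h.hbp a0 b0 rfl (hq.trans h.Nη)
  have s2 := h.lip2 a1 b1 rfl rfl
  simp only [e2_shift d.c i i' z0 z1] at s2
  have hq' : ∀ j, |(d.c.pos (i, z0) - d.c.pos (i', z0)) j| ≤ ξ := fun j =>
    (norm_le_pi_norm _ j).trans (hq.trans h.Nξ)
  have s3 := e2_algB hK2 hρ hτ (hq' i0) (hq' j1) (hq' j2) (h.Pb z1 j1) (h.Pb z1 j2)
    (h.kb _ j1) (h.kb _ j2) s0 s2
  generalize d.c.e i - d.c.e i' = e at *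
  have s4 : γ / 16 ≤ max |e j1| |e j2| := by
    have m1 := le_max_left |e j1| |e j2|
    have m2 := le_max_right |e j1| |e j2|
    have m0 : 0 ≤ max |e j1| |e j2| := (abs_nonneg _).trans m1
    have m3 := e2_dot (h.Pb z0 j1) (h.Pb z0 j2) m1 m2
    have m4 := abs_sub (e i0 + d.P z0 i0 j1 * e j1 + d.P z0 i0 j2 * e j2)
      (d.P z0 i0 j1 * e j1 + d.P z0 i0 j2 * e j2)
    rw [add_assoc, add_sub_cancel_right, ← add_assoc] at m4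
    have m5 : ‖e‖ ≤ γ / 2 + 8 * max |e j1| |e j2| := by
      refine (pi_norm_le_iff_of_nonneg (by positivity)).2 fun j => ?_
      rw [Real.norm_eq_abs]
      rcases h.ix.all j with rfl | rfl | rfl <;> linarith
    linarith
  have s5 : |X1 * e j1 + X2 * e j2| ≤ |z1 - z0| * ξ := by
    rw [eX1, eX2, mul_assoc, mul_assoc, ← mul_add]
    exact e2_mul le_rfl s1
  rw [← eD1, ← eD2, ← eY1, ← eY2] at s3
  refine (e2_plan (by positivity) s4 d1 d2 x1 x2 y1 y2 s5 (by linarith) (by positivity) s3).trans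
    (add_le_add le_rfl (mul_le_mul_of_nonneg_right ?_ hn))
  have hρ1 : |z1 - z0| ≤ 1 := by
    have := mul_le_mul_of_nonneg_left hK2 ((abs_nonneg _).trans hτ)
    linarith
  have := mul_le_mul_of_nonneg_right hρ1 hξ.le
  rw [div_div_eq_mul_div]
  exact div_le_div_of_nonneg_right (by linarith) hγ.le

end Vale.Agent.P127
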