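import Vale.Agent.P127.Alg

/-! # P127 End2/Pl: real algebra for End2. -/

namespace Vale.Agent.P127

theorem e2_mul {a b A B : ℝ} (ha : |a| ≤ A) (hb : |b| ≤ B) : |a * b| ≤ A * B := by
  rw [abs_mul]
  exact mul_le_mul ha hb (abs_nonneg _) ((abs_nonneg _).trans ha)

theorem e2_dot {a1 a2 b1 b2 A B : ℝ} (h1 : |a1| ≤ A) (h2 : |a2| ≤ A) (h3 : |b1| ≤ B)
    (h4 : |b2| ≤ B) : |a1 * b1 + a2 * b2| ≤ 2 * (A * B) := by
  have := abs_add_le (a1 * b1) (a2 * b2)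
  linarith [e2_mul h1 h3, e2_mul h2 h4]

theorem e2_algA {q0 q1 q2 e0 e1 e2 a1 a2 b1 b2 k1 k2 τ w K ξ ρ m n : ℝ} (hK : 2 ≤ K)
    (hρ : ρ * K ≤ 1 / 2) (hτ : |τ| ≤ ρ)
    (hu : |q0 + τ * e0 + b1 * (q1 + τ * e1) + b2 * (q2 + τ * e2)| ≤ w)
    (hs : |e0 + a1 * e1 + a2 * e2 + (k1 * q1 + k2 * q2)| ≤ K * (|q0 + a1 * q1 + a2 * q2| + ξ))
    (p1 : |q1 + τ * e1| ≤ 4) (p2 : |q2 + τ * e2| ≤ 4) (f1 : |e1| ≤ 2) (f2 : |e2| ≤ 2)
    (m1 : |b1 - a1 - τ * k1| ≤ m) (m2 : |b2 - a2 - τ * k2| ≤ m) (n1 : |b1 - a1| ≤ n)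
    (n2 : |b2 - a2| ≤ n) :
    |q0 + a1 * q1 + a2 * q2 + ((b1 - a1 - τ * k1) * (q1 + τ * e1) +
      (b2 - a2 - τ * k2) * (q2 + τ * e2))| ≤ 2 * w + 20 * (ρ * K) * m + 2 * (ρ * K) * ξ + 8 * ρ * n := by
  have hρ0 : 0 ≤ ρ := (abs_nonneg _).trans hτ
  have hm : 0 ≤ m := (abs_nonneg _).trans m1
  have x1 : |τ * k1| ≤ m + n := by
    have := abs_sub (b1 - a1) (b1 - a1 - τ * k1)
    rw [sub_sub_cancel] at this
    linarith
  have x2 : |τ * k2| ≤ m + n := by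
    have := abs_sub (b2 - a2) (b2 - a2 - τ * k2)
    rw [sub_sub_cancel] at this
    linarith
  have h1 := e2_mul hτ (e2_dot x1 x2 f1 f2)
  have h2 := e2_mul hτ hs
  have h3 := e2_dot m1 m2 p1 p2
  have e : q0 + a1 * q1 + a2 * q2 + ((b1 - a1 - τ * k1) * (q1 + τ * e1) +
      (b2 - a2 - τ * k2) * (q2 + τ * e2)) =
      q0 + τ * e0 + b1 * (q1 + τ * e1) + b2 * (q2 + τ * e2) -
        τ * (e0 + a1 * e1 + a2 * e2 + (k1 * q1 + k2 * q2)) - τ * (τ * k1 * e1 + τ * k2 * e2) := by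
    ring
  generalize (b1 - a1 - τ * k1) * (q1 + τ * e1) + (b2 - a2 - τ * k2) * (q2 + τ * e2) = Y at *
  generalize q0 + a1 * q1 + a2 * q2 = U at *
  have h4 : |U + Y| ≤ w + ρ * (K * (|U| + ξ)) + ρ * (2 * ((m + n) * 2)) := by
    rw [e]
    refine (abs_sub _ _).trans (add_le_add ((abs_sub _ _).trans (add_le_add hu h2)) h1)
  have h5 : |U| ≤ |U + Y| + 8 * m := by
    have := abs_sub (U + Y) Y
    rw [add_sub_cancel_right] at this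
    linarith
  have h6 := mul_le_mul_of_nonneg_left h5 (show 0 ≤ ρ * K by positivity)
  have h7 := mul_le_mul_of_nonneg_right hρ (abs_nonneg (U + Y))
  have h8 := mul_le_mul_of_nonneg_left hK (show 0 ≤ ρ * m by positivity)
  nlinarith

theorem e2_algB {q0 q1 q2 e0 e1 e2 a1 a2 b1 b2 l1 l2 τ K ξ ρ : ℝ} (hK : 2 ≤ K)
    (hρ : ρ * K ≤ 1 / 100) (hτ : |τ| ≤ ρ) (r0 : |q0| ≤ ξ) (r1 : |q1| ≤ ξ) (r2 : |q2| ≤ ξ)
    (c1 : |b1| ≤ 4) (c2 : |b2| ≤ 4) (d1 : |l1| ≤ K) (d2 : |l2| ≤ K)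
    (hs : |e0 + a1 * e1 + a2 * e2| ≤ K * (ξ + ξ))
    (ht : |e0 + b1 * e1 + b2 * e2 + (l1 * (q1 + τ * e1) + l2 * (q2 + τ * e2))| ≤
      K * (|q0 + τ * e0 + b1 * (q1 + τ * e1) + b2 * (q2 + τ * e2)| + ξ)) :
    |(b1 - a1 + τ * l1) * e1 + (b2 - a2 + τ * l2) * e2| ≤
      1 / 100 * |(b1 - a1) * e1 + (b2 - a2) * e2| + 15 * K * ξ := by
  have hξ : 0 ≤ ξ := (abs_nonneg _).trans r0
  have e1' : (b1 - a1 + τ * l1) * e1 + (b2 - a2 + τ * l2) * e2 =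
      e0 + b1 * e1 + b2 * e2 + (l1 * (q1 + τ * e1) + l2 * (q2 + τ * e2)) -
        (e0 + a1 * e1 + a2 * e2) - (l1 * q1 + l2 * q2) := by ring
  have e2' : q0 + τ * e0 + b1 * (q1 + τ * e1) + b2 * (q2 + τ * e2) =
      q0 + (b1 * q1 + b2 * q2) + τ * (e0 + a1 * e1 + a2 * e2) +
        τ * ((b1 - a1) * e1 + (b2 - a2) * e2) := by ring
  have h1 : |q0 + τ * e0 + b1 * (q1 + τ * e1) + b2 * (q2 + τ * e2)| ≤
      ξ + 2 * (4 * ξ) + ρ * (K * (ξ + ξ)) + ρ * |(b1 - a1) * e1 + (b2 - a2) * e2| := by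
    rw [e2']
    exact (abs_add_le _ _).trans (add_le_add ((abs_add_le _ _).trans (add_le_add
      ((abs_add_le _ _).trans (add_le_add r0 (e2_dot c1 c2 r1 r2))) (e2_mul hτ hs)))
      (e2_mul hτ le_rfl))
  rw [e1']
  refine (abs_sub _ _).trans ((add_le_add ((abs_sub _ _).trans (add_le_add ht hs))
    (e2_dot d1 d2 r1 r2)).trans ?_)
  have h2 := mul_le_mul_of_nonneg_left h1 (show 0 ≤ K by linarith)
  have h3 := mul_le_mul_of_nonneg_right hρ (abs_nonneg ((b1 - a1) * e1 + (b2 - a2) * e2))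
  have h4 := mul_le_mul_of_nonneg_right hρ (show 0 ≤ K * ξ by positivity)
  have h5 : 0 ≤ K * ξ := by positivity
  nlinarith

theorem e2_plan {X1 X2 Y1 Y2 D1 D2 p1 p2 n g μ ε : ℝ} (hg : 0 < g) (hp : g ≤ max |p1| |p2|)
    (d1 : |D1| ≤ n) (d2 : |D2| ≤ n) (x1 : |X1| ≤ 2 * n) (x2 : |X2| ≤ 2 * n) (y1 : |Y1| ≤ 2 * n)
    (y2 : |Y2| ≤ 2 * n) (hμ : |X1 * p1 + X2 * p2| ≤ μ) (hμ' : 2 * μ ≤ max |X1| |X2| * g)
    (hε : 0 ≤ ε)
    (h : |(D1 + Y1) * p1 + (D2 + Y2) * p2| ≤ 1 / 100 * |D1 * p1 + D2 * p2| + ε) :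
    |(X1 * D2 - X2 * D1) + (X1 * Y2 - X2 * Y1)| ≤
      1 / 100 * |X1 * D2 - X2 * D1| + (16 * μ + 8 * ε) / g * n := by
  have hn : 0 ≤ n := (abs_nonneg _).trans d1
  have hμ0 : 0 ≤ μ := (abs_nonneg _).trans hμ
  have a1 := le_max_left |X1| |X2|
  have a2 := le_max_right |X1| |X2|
  have a3 : max |X1| |X2| ≤ 2 * n := max_le x1 x2
  have a4 : max |X1| |X2| ^ 2 ≤ X1 ^ 2 + X2 ^ 2 := by
    rcases max_cases |X1| |X2| with ⟨e, -⟩ | ⟨e, -⟩ <;> rw [e, sq_abs] <;> nlinarith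
  have a5 : g ^ 2 ≤ p1 ^ 2 + p2 ^ 2 := by
    refine (pow_le_pow_left₀ hg.le hp 2).trans ?_
    rcases max_cases |p1| |p2| with ⟨e, -⟩ | ⟨e, -⟩ <;> rw [e, sq_abs] <;> nlinarith
  generalize max |X1| |X2| = x at *
  have hx : 0 ≤ x := (abs_nonneg _).trans a1
  rcases hx.eq_or_lt with rfl | hx
  · rw [abs_nonpos_iff.1 a1, abs_nonpos_iff.1 a2]
    simp only [zero_mul, sub_self, add_zero, abs_zero, mul_zero, zero_add]
    positivity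
  have hS : X1 ^ 2 + X2 ^ 2 ≤ 2 * x ^ 2 := by
    nlinarith [sq_abs X1, sq_abs X2, abs_nonneg X1, abs_nonneg X2]
  have hL : x * g / 2 ≤ |X1 * p2 - X2 * p1| := by
    refine (pow_le_pow_iff_left₀ (by positivity) (abs_nonneg _) two_ne_zero).1 ?_
    have b1 : (X1 * p1 + X2 * p2) ^ 2 ≤ (x * g / 2) ^ 2 := by
      rw [← sq_abs]
      exact pow_le_pow_left₀ (abs_nonneg _) (by linarith) 2
    have b2 := mul_le_mul a4 a5 (by positivity) (by positivity)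
    rw [sq_abs]
    nlinarith [mul_pos (pow_pos hx 2) (pow_pos hg 2)]
  have key : ∀ W1 W2 : ℝ, (X1 * p2 - X2 * p1) * (X1 * W2 - X2 * W1) =
      (X1 ^ 2 + X2 ^ 2) * (W1 * p1 + W2 * p2) - (X1 * p1 + X2 * p2) * (W1 * X1 + W2 * X2) :=
    fun W1 W2 => by ring
  have w1 : |D1 + Y1| ≤ 3 * n := (abs_add_le _ _).trans (by linarith)
  have w2 : |D2 + Y2| ≤ 3 * n := (abs_add_le _ _).trans (by linarith)
  have b1 : |X1 * p2 - X2 * p1| * |(X1 * D2 - X2 * D1) + (X1 * Y2 - X2 * Y1)| ≤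
      (X1 ^ 2 + X2 ^ 2) * (1 / 100 * |D1 * p1 + D2 * p2| + ε) + μ * (2 * (3 * n * x)) := by
    rw [← abs_mul, show (X1 * D2 - X2 * D1) + (X1 * Y2 - X2 * Y1) =
      X1 * (D2 + Y2) - X2 * (D1 + Y1) by ring, key]
    exact (abs_sub _ _).trans (add_le_add (e2_mul (abs_of_nonneg (by positivity)).le h)
      (e2_mul hμ (e2_dot w1 w2 a1 a2)))
  have b2 : (X1 ^ 2 + X2 ^ 2) * |D1 * p1 + D2 * p2| ≤
      |X1 * p2 - X2 * p1| * |X1 * D2 - X2 * D1| + μ * (2 * (n * x)) := by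
    rw [← abs_mul, ← abs_of_nonneg (show 0 ≤ X1 ^ 2 + X2 ^ 2 by positivity), ← abs_mul,
      ← sub_add_cancel ((X1 ^ 2 + X2 ^ 2) * _) ((X1 * p1 + X2 * p2) * (D1 * X1 + D2 * X2)), ← key]
    exact (abs_add_le _ _).trans (add_le_add le_rfl (e2_mul hμ (e2_dot d1 d2 a1 a2)))
  have b3 : (X1 ^ 2 + X2 ^ 2) * ε ≤ 4 * (n * x) * ε :=
    mul_le_mul_of_nonneg_right (by nlinarith) hε
  have b4 : (8 * μ + 4 * ε) * (n * x) ≤ |X1 * p2 - X2 * p1| * ((16 * μ + 8 * ε) / g * n) := by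
    refine le_trans (le_of_eq ?_) (mul_le_mul_of_nonneg_right hL (by positivity))
    field_simp
    ring
  refine le_of_mul_le_mul_left ?_ (lt_of_lt_of_le (by positivity) hL)
  have b5 : 0 ≤ μ * (n * x) := by positivity
  nlinarith

theorem e2_dir (k1 k2 : ℝ) (h : 0 < max |k1| |k2|) : ∃ v1 v2 : ℝ, |v1| ≤ 1 ∧ |v2| ≤ 1 ∧
    (v1 = 1 ∨ v2 = 1) ∧ ∀ D1 D2 B : ℝ, |k1 * D2 - k2 * D1| ≤ B * max |k1| |k2| →
      |D1 * v1 + D2 * v2| ≤ B := by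
  rcases max_cases |k1| |k2| with ⟨e, h1⟩ | ⟨e, h1⟩ <;> rw [e] at h ⊢
  · refine ⟨-k2 / k1, 1, ?_, abs_one.le, Or.inr rfl, fun D1 D2 B hB => ?_⟩
    · rwa [abs_div, abs_neg, div_le_one h]
    · have := abs_pos.1 h
      rw [show D1 * (-k2 / k1) + D2 * 1 = (k1 * D2 - k2 * D1) / k1 by field_simp; ring, abs_div,
        div_le_iff₀ h]
      exact hB
  · refine ⟨1, -k1 / k2, abs_one.le, ?_, Or.inl rfl, fun D1 D2 B hB => ?_⟩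
    · rw [abs_div, abs_neg, div_le_one h]
      exact h1.le
    · have := abs_pos.1 h
      rw [show D1 * 1 + D2 * (-k1 / k2) = -(k1 * D2 - k2 * D1) / k2 by field_simp; ring, abs_div,
        abs_neg, div_le_iff₀ h]
      exact hB

end Vale.Agent.P127
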